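import Vale.Agent.P252.Defs
import Vale.Agent.P252.Final

namespace Vale.Agent.Results.P252.EntireCounterexample

open _root_.P252

/-- In every dimension `n ≥ 10` there is an entire smooth function with positive definite
Hessian which solves the affine maximal equation and is not a quadratic polynomial. -/
theorem result (n : ℕ) (hn : 10 ≤ n) :
    ∃ u : (Fin n → ℝ) → ℝ, ContDiff ℝ (⊤ : ℕ∞) u ∧ (∀ x, (hess u x).PosDef) ∧
      (∀ x, AMop u x = 0) ∧
      ¬ ∃ (A : Matrix (Fin n) (Fin n) ℝ) (b : Fin n → ℝ) (c : ℝ),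
          ∀ x, u x = 1 / 2 * (x ⬝ᵥ A.mulVec x) + b ⬝ᵥ x + c := by
  obtain ⟨m, rfl⟩ : ∃ m, n = m + 1 := ⟨n - 1, by omega⟩
  exact final_aux m (by omega)

end Vale.Agent.Results.P252.EntireCounterexample
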